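import Mathlib
import Vale.Agent.P038.Prune

namespace Vale.Agent.Results.P038.Seymour

open Finset Vale.Agent.P038

/-- Seymour's second neighbourhood conjecture. -/
theorem result {V : Type*} [Finite V] [Nonempty V] (A : V → V → Prop)
    (hloop : ∀ v, ¬ A v v) (hopp : ∀ u v, A u v → ¬ A v u) :
    ∃ v : V, {u | A v u}.ncard ≤ {w | w ≠ v ∧ ¬ A v w ∧ ∃ u, A v u ∧ A u w}.ncard := by
  classical
  have := Fintype.ofFinite V
  by_contra hc
  push Not at hc
  refine not_bad (fun v => insert v (univ.filter fun u => A v u)) ⟨fun v => mem_insert_self _ _,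
    fun u v h1 h2 => ?_, fun v => ?_⟩
  · simp only [mem_insert, mem_filter, mem_univ, true_and] at h1 h2
    rcases h1 with h1 | h1
    · exact h1.symm
    · rcases h2 with h2 | h2
      · exact h2
      · exact absurd h2 (hopp _ _ h1)
  · have h := hc v
    have e1 : {u | A v u}.ncard = (univ.filter fun u => A v u).card := by
      rw [← Set.ncard_coe_finset]
      congr 1
      ext u
      simp
    have e2 : {w | w ≠ v ∧ ¬ A v w ∧ ∃ u, A v u ∧ A u w}.ncard =
        (univ.filter fun w => w ≠ v ∧ ¬ A v w ∧ ∃ u, A v u ∧ A u w).card := by
      rw [← Set.ncard_coe_finset]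
      congr 1
      ext u
      simp
    have e3 : (insert v (univ.filter fun u => A v u)).card =
        (univ.filter fun u => A v u).card + 1 :=
      card_insert_of_notMem (by simp [hloop v])
    have e4 : G (fun v => insert v (univ.filter fun u => A v u))
        (insert v (univ.filter fun u => A v u)) ⊆ insert v (univ.filter fun u => A v u) ∪
        (univ.filter fun w => w ≠ v ∧ ¬ A v w ∧ ∃ u, A v u ∧ A u w) := by
      intro y hy0
      obtain ⟨a, ha, hy⟩ := mem_G.1 hy0
      clear hy0
      simp only [mem_insert, mem_filter, mem_univ, true_and, mem_union] at ha hy ⊢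
      by_cases h1 : y = v
      · exact Or.inl (Or.inl h1)
      by_cases h2 : A v y
      · exact Or.inl (Or.inr h2)
      refine Or.inr ⟨h1, h2, ?_⟩
      rcases ha with rfl | ha
      · rcases hy with hy | hy
        · exact absurd hy h1
        · exact absurd hy h2
      · rcases hy with rfl | hy
        · exact absurd ha h2
        · exact ⟨a, ha, hy⟩
    have e5 := (card_le_card e4).trans (card_union_le _ _)
    simp only
    omega

end Vale.Agent.Results.P038.Seymour
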